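import Vale.Agent.P228.Main

/-!
P228: equivariant maps whose fibres are lines.
-/

namespace Vale.Agent.P228

/-- squares act trivially in every continuous action of a compact group on the line -/
theorem sq_trivial_real {K : Type*} [Group K] [TopologicalSpace K] [CompactSpace K]
    (f : K → ℝ → ℝ) (hc : Continuous fun p : K × ℝ => f p.1 p.2) (h1 : ∀ t, f 1 t = t)
    (hmul : ∀ g h t, f (g * h) t = f g (f h t)) (g : K) (t : ℝ) : f (g * g) t = t := by
  have hcg : ∀ g, Continuous (f g) := fun g => hc.comp (by fun_prop : Continuous fun t : ℝ => (g, t))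
  have hct : ∀ t, Continuous fun g => f g t := fun t =>
    hc.comp (by fun_prop : Continuous fun g : K => (g, t))
  have hinj : ∀ g, Function.Injective (f g) := by
    intro g s t hst
    have h2 : f g⁻¹ (f g s) = f g⁻¹ (f g t) := congrArg _ hst
    rwa [← hmul, ← hmul, inv_mul_cancel, h1, h1] at h2
  have hor : ∀ g, StrictMono (f g) ∨ StrictAnti (f g) := fun g =>
    (hcg g).strictMono_of_inj (hinj g)
  have hmono : ∀ g, f g 0 ≤ f g 1 → StrictMono (f g) := by
    intro g hg
    rcases hor g with h | h
    · exact h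
    · exact absurd (h zero_lt_one) (not_lt.2 hg)
  let H : Subgroup K :=
    { carrier := {g | f g 0 ≤ f g 1}
      one_mem' := by
        show f 1 0 ≤ f 1 1
        rw [h1, h1]; exact zero_le_one
      mul_mem' := by
        intro g h hg hh
        show f (g * h) 0 ≤ f (g * h) 1
        rw [hmul, hmul]
        exact (hmono g hg).monotone ((hmono h hh).monotone zero_le_one)
      inv_mem' := by
        intro g hg
        show f g⁻¹ 0 ≤ f g⁻¹ 1
        rcases hor g⁻¹ with h | h
        · exact (h zero_lt_one).le
        · exfalso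
          have h2 := hmono g hg (h zero_lt_one)
          rw [← hmul, ← hmul, mul_inv_cancel, h1, h1] at h2
          exact absurd h2 (not_lt.2 zero_le_one) }
  have hcl : IsClosed (H : Set K) := isClosed_le (hct 0) (hct 1)
  have : CompactSpace H := isCompact_iff_compactSpace.1 hcl.isCompact
  have hg : g * g ∈ H := by
    show f (g * g) 0 ≤ f (g * g) 1
    rw [hmul, hmul]
    rcases hor g with h | h
    · exact h.monotone (h.monotone zero_le_one)
    · exact h.antitone (h.antitone zero_le_one)
  exact fix_of_mono (H := H) (fun h t => f (h : K) t)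
    (fun t => (hct t).comp continuous_subtype_val) h1 (fun g h t => hmul g h t)
    (fun h => (hmono h h.2).monotone) ⟨g * g, hg⟩ t

/-- equivariant maps with line fibres -/
theorem fib_sq {G : Type*} [Group G] [TopologicalSpace G] [CompactSpace G]
    {E X : Type*} [TopologicalSpace E] [TopologicalSpace X] [T2Space X] {π : E → X}
    (hπ : Continuous π) (hfib : ∀ x, Nonempty ({e : E // π e = x} ≃ₜ ℝ))
    {a : G → E → E} (ha : IsAction a) (hf : Faithful a) {b : G → X → X}
    (hb : ∀ g e, π (a g e) = b g (π e)) {g : G} (hg : ∀ x, b g x = x) : g * g = 1 := by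
  have hsurj : ∀ x, ∃ e, π e = x := by
    intro x
    obtain ⟨φ⟩ := hfib x
    exact ⟨_, (φ.symm 0).2⟩
  let K : Subgroup G :=
    { carrier := {g | ∀ e, π (a g e) = π e}
      one_mem' := fun e => by rw [ha.one]
      mul_mem' := by
        intro g h hg hh e
        rw [ha.mul, hg, hh]
      inv_mem' := by
        intro g hg e
        have h1 := hg (a g⁻¹ e)
        rw [← ha.mul, mul_inv_cancel, ha.one] at h1
        exact h1.symm }
  have hcl : IsClosed (K : Set G) := by
    have h1 : (K : Set G) = ⋂ e : E, {g | π (a g e) = π e} := by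
      ext g
      simp only [Set.mem_iInter]
      rfl
    rw [h1]
    refine isClosed_iInter fun e => isClosed_eq ?_ continuous_const
    exact hπ.comp (ha.cont.comp (by fun_prop : Continuous fun g : G => (g, e)))
  have : CompactSpace K := isCompact_iff_compactSpace.1 hcl.isCompact
  have hgK : g ∈ K := fun e => by rw [hb, hg]
  apply hf
  intro e
  obtain ⟨φ⟩ := hfib (π e)
  let f : K → ℝ → ℝ := fun k t => φ ⟨a k (φ.symm t : E), by rw [k.2, (φ.symm t).2]⟩
  have h1 : ∀ t, f 1 t = t := by
    intro t
    have h2 : (⟨a ((1 : K) : G) (φ.symm t : E), by rw [(1 : K).2, (φ.symm t).2]⟩ :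
        {e' : E // π e' = π e}) = φ.symm t := Subtype.ext (ha.one _)
    show φ _ = t
    rw [h2, φ.apply_symm_apply]
  have hmul : ∀ k l t, f (k * l) t = f k (f l t) := by
    intro k l t
    show φ _ = φ _
    congr 1
    apply Subtype.ext
    show a ((k * l : K) : G) (φ.symm t : E) = a k (φ.symm (φ _) : E)
    rw [φ.symm_apply_apply]
    exact ha.mul _ _ _
  have hc : Continuous fun p : K × ℝ => f p.1 p.2 := by
    refine φ.continuous.comp (Continuous.subtype_mk ?_ _)
    exact ha.cont.comp ((continuous_subtype_val.comp continuous_fst).prodMk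
      (continuous_subtype_val.comp (φ.symm.continuous.comp continuous_snd)))
  have h2 := sq_trivial_real f hc h1 hmul ⟨g, hgK⟩ (φ ⟨e, rfl⟩)
  have h3 : (⟨a (((⟨g, hgK⟩ : K) * ⟨g, hgK⟩ : K) : G) (φ.symm (φ ⟨e, rfl⟩) : E), by
      rw [((⟨g, hgK⟩ : K) * ⟨g, hgK⟩ : K).2, (φ.symm (φ ⟨e, rfl⟩)).2]⟩ :
        {e' : E // π e' = π e}) = ⟨e, rfl⟩ := φ.injective h2
  have h4 := congrArg Subtype.val h3
  rw [φ.symm_apply_apply] at h4
  exact h4

/-- for compact groups without elements of order two, faithfulness descends along towers -/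
theorem tower {G : Type*} [Group G] [TopologicalSpace G] [CompactSpace G]
    (hG : ∀ g : G, g * g = 1 → g = 1) (E : ℕ → Type*) [∀ i, TopologicalSpace (E i)]
    [∀ i, T2Space (E i)] (π : ∀ i, E (i + 1) → E i) (hπ : ∀ i, Continuous (π i))
    (hfib : ∀ i x, Nonempty ({e : E (i + 1) // π i e = x} ≃ₜ ℝ))
    (a : ∀ i, G → E i → E i) (ha : ∀ i, IsAction (a i))
    (hb : ∀ i g e, π i (a (i + 1) g e) = a i g (π i e)) (m : ℕ) (hf : Faithful (a m)) :
    Faithful (a 0) := by
  induction m with
  | zero => exact hf
  | succ m ih =>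
    apply ih
    intro g hg
    exact hG g (fib_sq (hπ m) (hfib m) (ha (m + 1)) hf (hb m) hg)

end Vale.Agent.P228
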