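import Mathlib

/-!
P228 (Hilbert-Smith conjecture): compact groups acting on `X × ℝ^m` by flag-preserving
homeomorphisms.
-/

namespace Vale.Agent.P228

/-- `a` is a continuous action of the topological group `G` on the space `M` -/
structure IsAction {G M : Type*} [Group G] [TopologicalSpace G] [TopologicalSpace M]
    (a : G → M → M) : Prop where
  one : ∀ z, a 1 z = z
  mul : ∀ g h z, a (g * h) z = a g (a h z)
  cont : Continuous fun p : G × M => a p.1 p.2

/-- only the identity acts trivially -/
def Faithful {G M : Type*} [Group G] (a : G → M → M) : Prop := ∀ g, (∀ z, a g z = z) → g = 1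

/-- a compact group acting on `ℝ` by increasing maps acts trivially -/
theorem fix_of_mono {H : Type*} [Group H] [TopologicalSpace H] [CompactSpace H]
    (f : H → ℝ → ℝ) (hcont : ∀ t, Continuous fun h => f h t) (hone : ∀ t, f 1 t = t)
    (hmul : ∀ g h t, f (g * h) t = f g (f h t)) (hmono : ∀ h, Monotone (f h)) (h : H) (t : ℝ) :
    f h t = t := by
  obtain ⟨k, _, hk⟩ := isCompact_univ.exists_isMaxOn (Set.univ_nonempty (α := H))
    (hcont t).continuousOn
  have hk' : ∀ g, f g t ≤ f k t := fun g => hk (Set.mem_univ g)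
  have hfix : ∀ g, f g (f k t) = f k t := by
    intro g
    apply le_antisymm
    · rw [← hmul]; exact hk' _
    · have h1 : f g⁻¹ (f k t) ≤ f k t := by rw [← hmul]; exact hk' _
      have h2 := hmono g h1
      rw [← hmul, mul_inv_cancel, hone] at h2
      exact h2
  have h3 : f k t = t := by
    have := hfix k⁻¹
    rw [← hmul, inv_mul_cancel, hone] at this
    exact this.symm
  have h4 := hfix h
  rw [h3] at h4
  exact h4

section

variable {G : Type*} [Group G] [TopologicalSpace G]
  {X : Type*} [TopologicalSpace X] {m : ℕ}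
  {a : G → X × (Fin m → ℝ) → X × (Fin m → ℝ)} {b : G → X → X}

/-- the fibre map in coordinate `k` -/
def fm (a : G → X × (Fin m → ℝ) → X × (Fin m → ℝ)) (k : Fin m) (g : G) (x : X)
    (v : Fin m → ℝ) (t : ℝ) : ℝ := (a g (x, Function.update v k t)).2 k

theorem b_one (ha : IsAction a) (hb : ∀ g z, (a g z).1 = b g z.1) (x : X) : b 1 x = x := by
  rw [← hb 1 (x, 0), ha.one]

theorem b_mul (ha : IsAction a) (hb : ∀ g z, (a g z).1 = b g z.1) (g h : G) (x : X) :
    b (g * h) x = b g (b h x) := by
  rw [← hb (g * h) (x, 0), ha.mul, hb, hb]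

theorem fm_cont (ha : IsAction a) (k : Fin m) :
    Continuous fun p : G × X × (Fin m → ℝ) × ℝ => fm a k p.1 p.2.1 p.2.2.1 p.2.2.2 := by
  have h1 : Continuous fun p : G × X × (Fin m → ℝ) × ℝ =>
      (p.1, (p.2.1, Function.update p.2.2.1 k p.2.2.2)) := by
    refine continuous_fst.prodMk ((continuous_fst.comp continuous_snd).prodMk ?_)
    exact Continuous.update (by fun_prop) k (by fun_prop)
  exact (continuous_apply k).comp (continuous_snd.comp (ha.cont.comp h1))

theorem eq_of_triv (ha : IsAction a) (hb : ∀ g z, (a g z).1 = b g z.1)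
    {g : G} (hg : ∀ x, b g x = x) (x : X) (v : Fin m → ℝ) : a g (x, v) = (x, (a g (x, v)).2) :=
  Prod.ext (by rw [hb]; exact hg x) rfl

variable (ha : IsAction a) (hb : ∀ g z, (a g z).1 = b g z.1)
  (ht : ∀ g x v w k, (∀ j ≤ k, v j = w j) → (a g (x, v)).2 k = (a g (x, w)).2 k)

include ha hb ht in
/-- composition -/
theorem fm_comp {g h : G} (hh : ∀ x, b h x = x) (k : Fin m) (x : X) (v : Fin m → ℝ) (t : ℝ) :
    fm a k (g * h) x v t = fm a k g x (a h (x, v)).2 (fm a k h x v t) := by
  rw [fm, ha.mul, eq_of_triv ha hb hh, fm]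
  apply ht
  intro j hj
  rcases eq_or_lt_of_le hj with rfl | hj
  · rw [Function.update_self]
    rfl
  · rw [Function.update_of_ne hj.ne]
    apply ht
    intro i hi
    rw [Function.update_of_ne (lt_of_le_of_lt hi hj).ne]

include ha in
theorem fm_one (k : Fin m) (x : X) (v : Fin m → ℝ) (t : ℝ) : fm a k 1 x v t = t := by
  rw [fm, ha.one]
  exact Function.update_self _ _ _

theorem triv_inv (ha : IsAction a) (hb : ∀ g z, (a g z).1 = b g z.1) {g : G}
    (hg : ∀ x, b g x = x) (x : X) : b g⁻¹ x = x := by
  have := b_mul ha hb g⁻¹ g x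
  rw [inv_mul_cancel, b_one ha hb, hg] at this
  exact this.symm

include ha hb ht in
theorem fm_inj {g : G} (hg : ∀ x, b g x = x) (k : Fin m) (x : X) (v : Fin m → ℝ) :
    Function.Injective (fm a k g x v) := by
  intro s t hst
  have h1 := fm_comp ha hb ht hg (g := g⁻¹) k x v s
  have h2 := fm_comp ha hb ht hg (g := g⁻¹) k x v t
  rw [inv_mul_cancel, fm_one ha] at h1 h2
  rw [h1, h2, hst]

include ha hb ht in
theorem fm_mono_or {g : G} (hg : ∀ x, b g x = x) (k : Fin m) (x : X) (v : Fin m → ℝ) :
    StrictMono (fm a k g x v) ∨ StrictAnti (fm a k g x v) := by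
  refine Continuous.strictMono_of_inj ?_ (fm_inj ha hb ht hg k x v)
  exact (fm_cont ha k).comp (by fun_prop : Continuous fun t : ℝ => (g, x, v, t))

include ha hb ht in
theorem mono_of_lt {g : G} (hg : ∀ x, b g x = x) {k : Fin m} {x : X} {v : Fin m → ℝ}
    (h : fm a k g x v 0 ≤ fm a k g x v 1) : StrictMono (fm a k g x v) := by
  rcases fm_mono_or ha hb ht hg k x v with h1 | h1
  · exact h1
  · exact absurd (h1 zero_lt_one) (not_lt.2 h)

include ha hb ht in
theorem anti_of_lt {g : G} (hg : ∀ x, b g x = x) {k : Fin m} {x : X} {v : Fin m → ℝ}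
    (h : fm a k g x v 1 ≤ fm a k g x v 0) : StrictAnti (fm a k g x v) := by
  rcases fm_mono_or ha hb ht hg k x v with h1 | h1
  · exact absurd (h1 zero_lt_one) (not_lt.2 h)
  · exact h1

include ha hb ht in
/-- the sign of a fibre map does not depend on the base point -/
theorem sign_const [ConnectedSpace X] {g : G} (hg : ∀ x, b g x = x) (k : Fin m) :
    (∀ x v, StrictMono (fm a k g x v)) ∨ (∀ x v, StrictAnti (fm a k g x v)) := by
  have hc0 : Continuous fun p : X × (Fin m → ℝ) => fm a k g p.1 p.2 0 :=
    (fm_cont ha k).comp (by fun_prop : Continuous fun p : X × (Fin m → ℝ) => (g, p.1, p.2, (0 : ℝ)))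
  have hc1 : Continuous fun p : X × (Fin m → ℝ) => fm a k g p.1 p.2 1 :=
    (fm_cont ha k).comp (by fun_prop : Continuous fun p : X × (Fin m → ℝ) => (g, p.1, p.2, (1 : ℝ)))
  let S : Set (X × (Fin m → ℝ)) := {p | fm a k g p.1 p.2 0 < fm a k g p.1 p.2 1}
  have hS : S = {p | fm a k g p.1 p.2 0 ≤ fm a k g p.1 p.2 1} := by
    ext p
    constructor
    · intro h
      have h' : fm a k g p.1 p.2 0 < fm a k g p.1 p.2 1 := h
      exact h'.le
    · intro h
      exact mono_of_lt ha hb ht hg h zero_lt_one
  have hclop : IsClopen S := by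
    constructor
    · rw [hS]
      exact isClosed_le hc0 hc1
    · exact isOpen_lt hc0 hc1
  rcases isClopen_iff.1 hclop with h | h
  · right
    intro x v
    apply anti_of_lt ha hb ht hg
    have : (x, v) ∉ S := by rw [h]; exact Set.notMem_empty _
    exact not_lt.1 this
  · left
    intro x v
    apply mono_of_lt ha hb ht hg
    have h1 : (x, v) ∈ S := by rw [h]; exact Set.mem_univ _
    have h2 : fm a k g x v 0 < fm a k g x v 1 := h1
    exact h2.le

/-- elements that act trivially on `X` and increasingly on all fibres -/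
def posGroup (ha : IsAction a) (hb : ∀ g z, (a g z).1 = b g z.1)
    (ht : ∀ g x v w k, (∀ j ≤ k, v j = w j) → (a g (x, v)).2 k = (a g (x, w)).2 k) :
    Subgroup G where
  carrier := {g | (∀ x, b g x = x) ∧ ∀ k x v, fm a k g x v 0 ≤ fm a k g x v 1}
  one_mem' := ⟨b_one ha hb, fun k x v => by rw [fm_one ha, fm_one ha]; exact zero_le_one⟩
  mul_mem' := by
    intro g h hg hh
    refine ⟨fun x => by rw [b_mul ha hb, hh.1, hg.1], fun k x v => ?_⟩
    rw [fm_comp ha hb ht hh.1, fm_comp ha hb ht hh.1]
    exact (mono_of_lt ha hb ht hg.1 (hg.2 _ _ _)).monotone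
      ((mono_of_lt ha hb ht hh.1 (hh.2 _ _ _)).monotone zero_le_one)
  inv_mem' := by
    intro g hg
    have hi := triv_inv ha hb hg.1
    refine ⟨hi, fun k x v => ?_⟩
    rcases fm_mono_or ha hb ht hi k x v with h1 | h1
    · exact (h1 zero_lt_one).le
    · exfalso
      have h2 := fm_comp ha hb ht hi (g := g) k x v 0
      have h3 := fm_comp ha hb ht hi (g := g) k x v 1
      rw [mul_inv_cancel, fm_one ha] at h2 h3
      have h4 := mono_of_lt ha hb ht hg.1 (hg.2 k x (a g⁻¹ (x, v)).2) (h1 zero_lt_one)
      rw [← h2, ← h3] at h4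
      exact absurd h4 (not_lt.2 zero_le_one)

include ha hb ht in
theorem posGroup_trivial [CompactSpace G] [T2Space X] {g : G} (hg : g ∈ posGroup ha hb ht)
    (z : X × (Fin m → ℝ)) : a g z = z := by
  have hcl : IsClosed ((posGroup ha hb ht : Subgroup G) : Set G) := by
    have h1 : ((posGroup ha hb ht : Subgroup G) : Set G) =
        (⋂ x : X, {g | b g x = x}) ∩ ⋂ k : Fin m, ⋂ x : X, ⋂ v : Fin m → ℝ,
          {g | fm a k g x v 0 ≤ fm a k g x v 1} := by
      ext g
      simp only [Set.mem_inter_iff, Set.mem_iInter, Set.mem_ofPred_eq]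
      rfl
    rw [h1]
    refine IsClosed.inter (isClosed_iInter fun x => ?_)
      (isClosed_iInter fun k => isClosed_iInter fun x => isClosed_iInter fun v => ?_)
    · have h2 : (fun g : G => b g x) = fun g => (a g (x, 0)).1 := by
        funext g
        rw [hb]
      have h3 : Continuous fun g : G => b g x := by
        rw [h2]
        exact continuous_fst.comp
          (ha.cont.comp (by fun_prop : Continuous fun g : G => (g, (x, (0 : Fin m → ℝ)))))
      exact isClosed_eq h3 continuous_const
    · exact isClosed_le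
        ((fm_cont ha k).comp (by fun_prop : Continuous fun g : G => (g, x, v, (0 : ℝ))))
        ((fm_cont ha k).comp (by fun_prop : Continuous fun g : G => (g, x, v, (1 : ℝ))))
  have : CompactSpace (posGroup ha hb ht) := isCompact_iff_compactSpace.1 hcl.isCompact
  obtain ⟨x, v⟩ := z
  have key : ∀ N : ℕ, ∀ k : Fin m, (k : ℕ) < N → ∀ h ∈ posGroup ha hb ht, ∀ x v,
      (a h (x, v)).2 k = v k := by
    intro N
    induction N with
    | zero => exact fun k hk => absurd hk (Nat.not_lt_zero _)
    | succ N ih =>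
      intro k hk h hh x v
      by_cases hkN : (k : ℕ) < N
      · exact ih k hkN h hh x v
      have hlow : ∀ h ∈ posGroup ha hb ht, ∀ w, ∀ j < k, (a h (x, w)).2 j = w j := by
        intro h hh w j hj
        apply ih j _ h hh
        have : (j : ℕ) < k := hj
        omega
      have h1 := fix_of_mono (H := posGroup ha hb ht) (fun h t => fm a k (h : G) x v t)
        (fun t => (fm_cont ha k).comp (by fun_prop :
          Continuous fun h : posGroup ha hb ht => ((h : G), x, v, t)))
        (fun t => fm_one ha k x v t)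
        (fun g h t => by
          show fm a k ((g : G) * (h : G)) x v t = _
          rw [fm_comp ha hb ht h.2.1, fm, fm]
          apply ht
          intro j hj
          rcases eq_or_lt_of_le hj with rfl | hj
          · rw [Function.update_self, Function.update_self]
          · rw [Function.update_of_ne hj.ne, Function.update_of_ne hj.ne]
            exact hlow h h.2 v j hj)
        (fun h => (mono_of_lt ha hb ht h.2.1 (h.2.2 _ _ _)).monotone) ⟨h, hh⟩ (v k)
      have h2 : fm a k h x v (v k) = v k := h1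
      rw [fm, Function.update_eq_self] at h2
      exact h2
  refine Prod.ext ?_ ?_
  · rw [hb]
    exact hg.1 x
  · funext k
    exact key (k + 1) k (Nat.lt_succ_self _) g hg x v

/-- the kernel of the action on `X` has exponent two and order at most `2 ^ m` -/
theorem kernel_small [CompactSpace G] [T2Space X] [ConnectedSpace X] (ha : IsAction a)
    (hb : ∀ g z, (a g z).1 = b g z.1)
    (ht : ∀ g x v w k, (∀ j ≤ k, v j = w j) → (a g (x, v)).2 k = (a g (x, w)).2 k)
    (hf : Faithful a) :
    (∀ g, (∀ x, b g x = x) → g * g = 1) ∧ {g | ∀ x, b g x = x}.Finite ∧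
      {g | ∀ x, b g x = x}.ncard ≤ 2 ^ m := by
  classical
  have hpos : ∀ g, g ∈ posGroup ha hb ht → g = 1 := fun g hg =>
    hf g (fun z => posGroup_trivial ha hb ht hg z)
  obtain ⟨x₀⟩ := (inferInstance : Nonempty X)
  let σ : G → (Fin m → Bool) := fun g k => decide (fm a k g x₀ 0 0 < fm a k g x₀ 0 1)
  have hσ : ∀ g h, (∀ x, b g x = x) → (∀ x, b h x = x) → σ g = σ h → g * h = 1 := by
    intro g h hg hh hgh
    apply hpos
    refine ⟨fun x => by rw [b_mul ha hb, hh, hg], fun k x v => ?_⟩
    rw [fm_comp ha hb ht hh, fm_comp ha hb ht hh]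
    have h1 : σ g k = σ h k := congrFun hgh k
    rcases sign_const ha hb ht hg k with h2 | h2 <;> rcases sign_const ha hb ht hh k with h3 | h3
    · exact (h2 _ _).monotone ((h3 _ _).monotone zero_le_one)
    · exfalso
      have e1 : σ g k = true := decide_eq_true (h2 x₀ 0 zero_lt_one)
      have e2 : σ h k = false := decide_eq_false (not_lt.2 (h3 x₀ 0 zero_lt_one).le)
      rw [e1, e2] at h1
      exact absurd h1 (by decide)
    · exfalso
      have e1 : σ g k = false := decide_eq_false (not_lt.2 (h2 x₀ 0 zero_lt_one).le)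
      have e2 : σ h k = true := decide_eq_true (h3 x₀ 0 zero_lt_one)
      rw [e1, e2] at h1
      exact absurd h1 (by decide)
    · exact (h2 _ _).antitone ((h3 _ _).antitone zero_le_one)
  have hsq : ∀ g, (∀ x, b g x = x) → g * g = 1 := fun g hg => hσ g g hg hg rfl
  have hinj : Set.InjOn σ {g | ∀ x, b g x = x} := by
    intro g hg h hh hgh
    have h1 := hσ g h hg hh hgh
    have h2 := hsq h hh
    exact mul_right_cancel (h1.trans h2.symm)
  refine ⟨hsq, Set.Finite.of_finite_image (Set.toFinite _) hinj, ?_⟩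
  have h1 : {g | ∀ x, b g x = x}.ncard = (σ '' {g | ∀ x, b g x = x}).ncard :=
    (Set.InjOn.ncard_image hinj).symm
  rw [h1]
  refine (Set.ncard_le_ncard (Set.subset_univ _) (Set.toFinite _)).trans ?_
  rw [Set.ncard_univ, Nat.card_eq_fintype_card, Fintype.card_fun, Fintype.card_bool,
    Fintype.card_fin]

end

end Vale.Agent.P228
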